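import Mathlib

/-! # P301: dimension count for alternating tensors -/

namespace Vale.Agent.P301.R2.H256

/-- a tensor which changes sign under transpositions of the indices vanishes on repeated indices -/
theorem alt_zero {p d : ℕ} {v : (Fin p → Fin d) → ℂ}
    (h : ∀ (τ : Equiv.Perm (Fin p)) I, v (I ∘ τ) = ((Equiv.Perm.sign τ : ℤ) : ℂ) * v I)
    {I : Fin p → Fin d} (hI : ¬ Function.Injective I) : v I = 0 := by
  classical
  rw [Function.Injective] at hI
  push Not at hI
  obtain ⟨a, b, hab, hne⟩ := hI
  have h1 := h (Equiv.swap a b) I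
  have h2 : I ∘ (Equiv.swap a b) = I := by
    funext c
    simp only [Function.comp_apply]
    rcases eq_or_ne c a with rfl | hca
    · rw [Equiv.swap_apply_left, hab]
    · rcases eq_or_ne c b with rfl | hcb
      · rw [Equiv.swap_apply_right, hab]
      · rw [Equiv.swap_apply_of_ne_of_ne hca hcb]
  rw [h2, Equiv.Perm.sign_swap hne] at h1
  push_cast at h1
  have h3 : (2 : ℂ) * v I = 0 := by linear_combination h1
  simpa using h3

/-- more than `binom(d, p)` alternating tensors are linearly dependent -/
theorem alt_dependent {p d r : ℕ} (hr : d.choose p < r) (v : Fin r → (Fin p → Fin d) → ℂ)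
    (h : ∀ b (τ : Equiv.Perm (Fin p)) I,
      v b (I ∘ τ) = ((Equiv.Perm.sign τ : ℤ) : ℂ) * v b I) :
    ∃ c : Fin r → ℂ, c ≠ 0 ∧ ∀ I, ∑ b, c b * v b I = 0 := by
  classical
  let S := {K : Finset (Fin d) // K.card = p}
  let u : Fin r → S → ℂ := fun b K => v b fun a => K.1.orderEmbOfFin K.2 a
  have hcard : Module.finrank ℂ (S → ℂ) < Fintype.card (Fin r) := by
    rw [Module.finrank_fintype_fun_eq_card, Fintype.card_fin]
    have : Fintype.card S = d.choose p := by
      have h0 := Fintype.card_finset_len (α := Fin d) p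
      rw [Fintype.card_fin] at h0
      exact h0
    rw [this]; exact hr
  have hdep : ¬ LinearIndependent ℂ u := by
    intro hli
    have := hli.fintype_card_le_finrank
    omega
  rw [Fintype.not_linearIndependent_iff] at hdep
  obtain ⟨c, hc, b0, hb0⟩ := hdep
  refine ⟨c, fun h0 => hb0 (by rw [h0]; rfl), fun I => ?_⟩
  by_cases hI : Function.Injective I
  swap
  · exact Finset.sum_eq_zero fun b _ => by rw [alt_zero (h b) hI, mul_zero]
  let K : Finset (Fin d) := Finset.univ.image I
  have hK : K.card = p := by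
    rw [Finset.card_image_of_injective _ hI, Finset.card_univ, Fintype.card_fin]
  let J : Fin p → Fin d := fun a => K.orderEmbOfFin hK a
  -- `I` is a rearrangement of `J`
  have hex : ∀ a, ∃ a', J a' = I a := by
    intro a
    have h1 : I a ∈ Set.range (K.orderEmbOfFin hK) := by
      rw [Finset.range_orderEmbOfFin]
      exact Finset.mem_coe.2 (Finset.mem_image_of_mem _ (Finset.mem_univ a))
    obtain ⟨a', ha'⟩ := h1
    exact ⟨a', ha'⟩
  choose t ht using hex
  have htinj : Function.Injective t := by
    intro a a' haa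
    apply hI
    rw [← ht a, ← ht a', haa]
  let τ : Equiv.Perm (Fin p) := Equiv.ofBijective t (Finite.injective_iff_bijective.1 htinj)
  have hIJ : I = J ∘ τ := by
    funext a
    exact (ht a).symm
  have h2 : ∑ b, c b * v b J = 0 := by
    have h3 := congrFun hc ⟨K, hK⟩
    simp only [Finset.sum_apply, Pi.smul_apply, smul_eq_mul, Pi.zero_apply] at h3
    exact h3
  have h4 : ∑ b, c b * v b I = ((Equiv.Perm.sign τ : ℤ) : ℂ) * ∑ b, c b * v b J := by
    rw [Finset.mul_sum]
    refine Finset.sum_congr rfl fun b _ => ?_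
    rw [hIJ, h b τ J]
    ring
  rw [h4, h2, mul_zero]

/-- more than `d ^ p` tensors are linearly dependent -/
theorem ten_dependent {p d r : ℕ} (hr : d ^ p < r) (v : Fin r → (Fin p → Fin d) → ℂ) :
    ∃ c : Fin r → ℂ, c ≠ 0 ∧ ∀ I, ∑ b, c b * v b I = 0 := by
  classical
  have hcard : Module.finrank ℂ ((Fin p → Fin d) → ℂ) < Fintype.card (Fin r) := by
    rw [Module.finrank_fintype_fun_eq_card, Fintype.card_fin, Fintype.card_fun, Fintype.card_fin,
      Fintype.card_fin]
    exact hr
  have hdep : ¬ LinearIndependent ℂ v := by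
    intro hli
    have := hli.fintype_card_le_finrank
    omega
  rw [Fintype.not_linearIndependent_iff] at hdep
  obtain ⟨c, hc, b0, hb0⟩ := hdep
  refine ⟨c, fun h0 => hb0 (by rw [h0]; rfl), fun I => ?_⟩
  have h3 := congrFun hc I
  simp only [Finset.sum_apply, Pi.smul_apply, smul_eq_mul, Pi.zero_apply] at h3
  exact h3

end Vale.Agent.P301.R2.H256
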